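import Mathlib

/-!
# P048: structure of a minimal counterexample to the cycle-complete Ramsey identity
-/

namespace Vale.Agent.Results.P048.MinimalCounterexample

open SimpleGraph Finset

/-- `G` contains a cycle of length exactly `m` -/
def HasCycle {V : Type} (G : SimpleGraph V) (m : ℕ) : Prop :=
  ∃ (v : V) (p : G.Walk v v), p.IsCycle ∧ p.length = m

/-- `G` contains an independent set of exactly `k` vertices -/
def HasIndep {V : Type} (G : SimpleGraph V) (k : ℕ) : Prop :=
  ∃ s : Finset V, G.IsIndepSet (s : Set V) ∧ s.card = k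

/-- the upper bound `R(C_m, K_k) ≤ (m - 1) (k - 1) + 1` -/
def Good (m k : ℕ) : Prop :=
  ∀ (V : Type) [Fintype V] (G : SimpleGraph V), (m - 1) * (k - 1) + 1 ≤ Fintype.card V →
    HasCycle G m ∨ HasIndep G k

/-- `Good` applied to the subgraph induced on a finite set `A` of vertices -/
theorem transfer {m k : ℕ} (h : Good m k) {V : Type} (G : SimpleGraph V) (hc : ¬ HasCycle G m)
    (A : Finset V) (hA : (m - 1) * (k - 1) + 1 ≤ A.card) :
    ∃ s : Finset V, s ⊆ A ∧ G.IsIndepSet (s : Set V) ∧ s.card = k := by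
  have h1 := h {x // x ∈ A} (G.comap (Subtype.val : {x // x ∈ A} → V)) (by simpa using hA)
  rcases h1 with ⟨v, p, hp, hl⟩ | ⟨s, hs, hk⟩
  · exfalso
    apply hc
    let φ : G.comap (Subtype.val : {x // x ∈ A} → V) →g G := ⟨Subtype.val, fun h => h⟩
    refine ⟨φ v, p.map φ, ?_, by rw [Walk.length_map]; exact hl⟩
    exact (Walk.isCycle_map_iff_of_injective (f := φ) Subtype.val_injective).mpr hp
  · refine ⟨s.map (Function.Embedding.subtype _), ?_, ?_, by rw [card_map]; exact hk⟩
    · intro x hx
      rw [mem_map] at hx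
      obtain ⟨y, -, rfl⟩ := hx
      exact y.2
    · intro x hx y hy hxy
      rw [mem_coe, mem_map] at hx hy
      obtain ⟨x', hx', rfl⟩ := hx
      obtain ⟨y', hy', rfl⟩ := hy
      have hne : x' ≠ y' := fun h => hxy (by rw [h])
      exact hs (mem_coe.mpr hx') (mem_coe.mpr hy') hne

/-- if there is no independent set of exactly `n` vertices, every independent set is smaller -/
theorem indep_lt {V : Type} (G : SimpleGraph V) {n : ℕ} (hind : ¬ HasIndep G n)
    (s : Finset V) (hs : G.IsIndepSet (s : Set V)) : s.card < n := by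
  by_contra h
  rw [not_lt] at h
  obtain ⟨t, hts, htc⟩ := Finset.exists_subset_card_eq h
  exact hind ⟨t, Set.Pairwise.mono (coe_subset.mpr hts) hs, htc⟩

theorem exists_max_indep {V : Type} (G : SimpleGraph V) (A : Finset V) :
    ∃ I : Finset V, I ⊆ A ∧ G.IsIndepSet (I : Set V) ∧
      ∀ J : Finset V, J ⊆ A → G.IsIndepSet (J : Set V) → J.card ≤ I.card := by
  classical
  have hne : (A.powerset.filter (fun I : Finset V => G.IsIndepSet (I : Set V))).Nonempty :=
    ⟨∅, by simp [SimpleGraph.IsIndepSet]⟩
  obtain ⟨I, hI, hmax⟩ := Finset.exists_max_image _ Finset.card hne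
  rw [mem_filter, mem_powerset] at hI
  exact ⟨I, hI.1, hI.2, fun J hJ hJi => hmax J (by rw [mem_filter, mem_powerset]; exact ⟨hJ, hJi⟩)⟩

theorem card_le_of_max {m : ℕ} {V : Type} (G : SimpleGraph V) (hc : ¬ HasCycle G m)
    (A I : Finset V) (hgood : Good m (I.card + 1))
    (hmax : ∀ J : Finset V, J ⊆ A → G.IsIndepSet (J : Set V) → J.card ≤ I.card) :
    A.card ≤ (m - 1) * I.card := by
  by_contra h
  rw [not_le] at h
  obtain ⟨s, hsA, hs, hsc⟩ := transfer hgood G hc A (by simpa using h)
  have := hmax s hsA hs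
  omega

theorem indep_union {V : Type} [DecidableEq V] (G : SimpleGraph V) (I J : Finset V)
    (hI : G.IsIndepSet (I : Set V)) (hJ : G.IsIndepSet (J : Set V))
    (hIJ : ∀ a ∈ I, ∀ b ∈ J, a ≠ b → ¬ G.Adj a b) :
    G.IsIndepSet ((I ∪ J : Finset V) : Set V) := by
  intro x hx y hy hxy
  rw [mem_coe, mem_union] at hx hy
  rcases hx with hx | hx <;> rcases hy with hy | hy
  · exact hI hx hy hxy
  · exact hIJ x hx y hy hxy
  · exact fun h => hIJ y hy x hx hxy.symm h.symm
  · exact hJ hx hy hxy

theorem degree_ge {m n : ℕ} (hn : 2 ≤ n) (hsmall : Good m (n - 1))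
    {V : Type} [Fintype V] [DecidableEq V] (G : SimpleGraph V) [DecidableRel G.Adj]
    (hcard : Fintype.card V = (m - 1) * (n - 1) + 1) (hcyc : ¬ HasCycle G m)
    (hind : ¬ HasIndep G n) (v : V) : m - 1 ≤ G.degree v := by
  by_contra hlt
  rw [not_le] at hlt
  have hWc : (m - 1) * (n - 1 - 1) + 1 ≤ ((univ \ G.neighborFinset v).erase v).card := by
    have h1 : (univ \ G.neighborFinset v).card = Fintype.card V - G.degree v := by
      rw [card_sdiff_of_subset (subset_univ _)]
      rfl
    have h2 : ((univ \ G.neighborFinset v).erase v).card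
        = (univ \ G.neighborFinset v).card - 1 := by
      apply card_erase_of_mem
      simp
    obtain ⟨n', rfl⟩ : ∃ n', n = n' + 2 := ⟨n - 2, by omega⟩
    have h3 : (m - 1) * (n' + 2 - 1) = (m - 1) * (n' + 2 - 1 - 1) + (m - 1) := by
      have h4 : n' + 2 - 1 = (n' + 2 - 1 - 1) + 1 := by omega
      rw [h4, Nat.mul_succ]
      simp
    omega
  obtain ⟨s, hsW, hs, hsc⟩ := transfer hsmall G hcyc _ hWc
  apply hind
  have hvs : v ∉ s := fun hv => by
    have := hsW hv
    simp at this
  refine ⟨insert v s, ?_, ?_⟩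
  · have hv : ∀ y ∈ s, ¬ G.Adj v y := by
      intro y hy
      have := hsW hy
      simp only [mem_erase, mem_sdiff, mem_univ, true_and, mem_neighborFinset] at this
      exact this.2
    intro x hx y hy hxy
    rw [mem_coe, mem_insert] at hx hy
    rcases hx with rfl | hx <;> rcases hy with rfl | hy
    · exact absurd rfl hxy
    · exact hv y hy
    · exact fun h => hv x hx h.symm
    · exact hs hx hy hxy
  · rw [card_insert_of_notMem hvs]
    omega

theorem separation {m n : ℕ} (hm : 2 ≤ m) (hsmall : ∀ k, 1 ≤ k → k < n → Good m k)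
    {V : Type} [Fintype V] [DecidableEq V] (G : SimpleGraph V)
    (hcard : Fintype.card V = (m - 1) * (n - 1) + 1) (hcyc : ¬ HasCycle G m)
    (hind : ¬ HasIndep G n) (X A B : Finset V) (hX : X.card ≤ 1) (hA : A.Nonempty)
    (hB : B.Nonempty) (hAB : Disjoint A B) (hXA : Disjoint X A) (hXB : Disjoint X B)
    (hU : X ∪ A ∪ B = univ) : ∃ a ∈ A, ∃ b ∈ B, G.Adj a b := by
  by_contra hno
  have hno' : ∀ a ∈ A, ∀ b ∈ B, ¬ G.Adj a b := fun a ha b hb h => hno ⟨a, ha, b, hb, h⟩
  obtain ⟨I, hIA, hI, hImax⟩ := exists_max_indep G A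
  obtain ⟨J, hJB, hJ, hJmax⟩ := exists_max_indep G B
  have hsingle : ∀ x : V, G.IsIndepSet (({x} : Finset V) : Set V) := by
    intro x y hy z hz hyz
    rw [mem_coe, mem_singleton] at hy hz
    exact absurd (hy.trans hz.symm) hyz
  have hI1 : 1 ≤ I.card := by
    obtain ⟨x, hx⟩ := hA
    have := hImax {x} (singleton_subset_iff.mpr hx) (hsingle x)
    simpa using this
  have hJ1 : 1 ≤ J.card := by
    obtain ⟨x, hx⟩ := hB
    have := hJmax {x} (singleton_subset_iff.mpr hx) (hsingle x)
    simpa using this
  have hIJ : G.IsIndepSet ((I ∪ J : Finset V) : Set V) :=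
    indep_union G I J hI hJ (fun a ha b hb _ => hno' a (hIA ha) b (hJB hb))
  have hIJc : (I ∪ J).card = I.card + J.card :=
    card_union_of_disjoint (disjoint_of_subset_left hIA (disjoint_of_subset_right hJB hAB))
  have hlt : I.card + J.card < n := hIJc ▸ indep_lt G hind _ hIJ
  have hgI : Good m (I.card + 1) := hsmall _ (by omega) (by omega)
  have hgJ : Good m (J.card + 1) := hsmall _ (by omega) (by omega)
  have hAc : A.card ≤ (m - 1) * I.card := card_le_of_max G hcyc A I hgI hImax
  have hBc : B.card ≤ (m - 1) * J.card := card_le_of_max G hcyc B J hgJ hJmax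
  have htot : X.card + A.card + B.card = (m - 1) * (n - 1) + 1 := by
    rw [← hcard, ← card_univ, ← hU, card_union_of_disjoint, card_union_of_disjoint hXA]
    exact disjoint_union_left.mpr ⟨hXB, hAB⟩
  have hmul : (m - 1) * (I.card + J.card) ≤ (m - 1) * (n - 1) :=
    Nat.mul_le_mul_left _ (by omega)
  rw [Nat.mul_add] at hmul
  have hX1 : X.card = 1 := by omega
  have hAe : A.card = (m - 1) * I.card := by omega
  have hBe : B.card = (m - 1) * J.card := by omega
  have hsum : I.card + J.card = n - 1 := by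
    have h1 : (m - 1) * (n - 1) ≤ (m - 1) * (I.card + J.card) := by
      rw [Nat.mul_add]
      omega
    have h2 : n - 1 ≤ I.card + J.card := Nat.le_of_mul_le_mul_left h1 (by omega)
    omega
  obtain ⟨v, rfl⟩ := card_eq_one.mp hX1
  have hvA : v ∉ A := disjoint_singleton_left.mp hXA
  have hvB : v ∉ B := disjoint_singleton_left.mp hXB
  obtain ⟨S, hSA, hS, hSc⟩ := transfer hgI G hcyc (insert v A) (by
    rw [card_insert_of_notMem hvA, hAe]
    simp)
  obtain ⟨T, hTB, hT, hTc⟩ := transfer hgJ G hcyc (insert v B) (by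
    rw [card_insert_of_notMem hvB, hBe]
    simp)
  have hvS : v ∈ S := by
    by_contra hv
    have hsub : S ⊆ A := fun x hx => by
      rcases mem_insert.mp (hSA hx) with rfl | h
      · exact absurd hx hv
      · exact h
    have := hImax S hsub hS
    omega
  have hvT : v ∈ T := by
    by_contra hv
    have hsub : T ⊆ B := fun x hx => by
      rcases mem_insert.mp (hTB hx) with rfl | h
      · exact absurd hx hv
      · exact h
    have := hJmax T hsub hT
    omega
  have hST : G.IsIndepSet ((S ∪ T : Finset V) : Set V) := by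
    apply indep_union G S T hS hT
    intro a ha b hb hab
    rcases mem_insert.mp (hSA ha) with rfl | haA
    · exact hT hvT hb hab
    · rcases mem_insert.mp (hTB hb) with rfl | hbB
      · exact hS ha hvS hab
      · exact hno' a haA b hbB
  have hinter : (S ∩ T).card ≤ 1 := by
    have hsub : S ∩ T ⊆ {v} := by
      intro x hx
      rw [mem_inter] at hx
      rw [mem_singleton]
      rcases mem_insert.mp (hSA hx.1) with h | haA
      · exact h
      · rcases mem_insert.mp (hTB hx.2) with h | hbB
        · exact h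
        · exact absurd hbB (disjoint_left.mp hAB haA)
    simpa using card_le_card hsub
  have hcu := card_union_add_card_inter S T
  have := indep_lt G hind _ hST
  omega

/-- **Structure of a minimal counterexample.**  Suppose `3 ≤ m`, `2 ≤ n`, and the upper bound
`R(C_m, K_k) ≤ (m-1)(k-1)+1` holds for all `1 ≤ k < n`.  If a graph `G` on exactly
`(m-1)(n-1)+1` vertices has no cycle of length `m` and no independent set of `n` vertices, then
every vertex of `G` has degree at least `m - 1`, and `G` cannot be separated by removing at most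
one vertex (so `G` is connected and has no cut vertex). -/
theorem result (m n : ℕ) (hm : 3 ≤ m) (hn : 2 ≤ n)
    (hsmall : ∀ k, 1 ≤ k → k < n → Good m k)
    (V : Type) [Fintype V] [DecidableEq V] (G : SimpleGraph V) [DecidableRel G.Adj]
    (hcard : Fintype.card V = (m - 1) * (n - 1) + 1)
    (hcyc : ¬ HasCycle G m) (hind : ¬ HasIndep G n) :
    (∀ v, m - 1 ≤ G.degree v) ∧
    (∀ X A B : Finset V, X.card ≤ 1 → A.Nonempty → B.Nonempty → Disjoint A B →
      Disjoint X A → Disjoint X B → X ∪ A ∪ B = univ → ∃ a ∈ A, ∃ b ∈ B, G.Adj a b) :=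
  ⟨degree_ge hn (hsmall _ (by omega) (by omega)) G hcard hcyc hind,
   fun X A B hX hA hB hAB hXA hXB hU =>
    separation (by omega) hsmall G hcard hcyc hind X A B hX hA hB hAB hXA hXB hU⟩

end Vale.Agent.Results.P048.MinimalCounterexample
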