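import Mathlib

/-!
# P048: a minimal counterexample to the cycle-complete Ramsey identity has no clique cutset
-/

namespace Vale.Agent.Results.P048.NoCliqueCutset

open Finset

/-- `G` contains a cycle of length exactly `m`. -/
def HasCycle {V : Type} (G : SimpleGraph V) (m : ℕ) : Prop :=
  ∃ (v : V) (p : G.Walk v v), p.IsCycle ∧ p.length = m

/-- `s` is an independent set of `G`. -/
def Indep {V : Type} (G : SimpleGraph V) (s : Finset V) : Prop :=
  ∀ x ∈ s, ∀ y ∈ s, ¬ G.Adj x y

/-- `G` has an independent set of exactly `n` vertices. -/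
def HasIndep {V : Type} (G : SimpleGraph V) (n : ℕ) : Prop :=
  ∃ s : Finset V, s.card = n ∧ Indep G s

/-- The upper bound `R(C_m, K_n) ≤ (m-1)(n-1)+1`: every graph on `(m-1)(n-1)+1` vertices contains
a cycle of length `m` or an independent set of `n` vertices. -/
def UpperBound (m n : ℕ) : Prop :=
  ∀ (V : Type) [Fintype V] (G : SimpleGraph V),
    Fintype.card V = (m - 1) * (n - 1) + 1 → HasCycle G m ∨ HasIndep G n

lemma Indep.mono {V : Type} {G : SimpleGraph V} {s t : Finset V} (h : Indep G t) (hst : s ⊆ t) :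
    Indep G s := fun x hx y hy => h x (hst hx) y (hst hy)

/-- without an independent `n`-set every independent set has fewer than `n` elements -/
lemma Indep.card_lt {V : Type} {G : SimpleGraph V} {n : ℕ} (hi : ¬ HasIndep G n) {s : Finset V}
    (h : Indep G s) : s.card < n := by
  by_contra hc
  obtain ⟨t, hts, htc⟩ := Finset.exists_subset_card_eq (not_lt.1 hc)
  exact hi ⟨t, htc, h.mono hts⟩

/-- the upper bound applied inside a vertex subset -/
lemma indep_of_card {V : Type} (G : SimpleGraph V) {m k : ℕ}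
    (hU : UpperBound m k) (hc : ¬ HasCycle G m) (T : Finset V)
    (hT : (m - 1) * (k - 1) + 1 ≤ T.card) : ∃ s ⊆ T, s.card = k ∧ Indep G s := by
  obtain ⟨T', hT'T, hT'c⟩ := Finset.exists_subset_card_eq hT
  let e : {x // x ∈ T'} ↪ V := Function.Embedding.subtype _
  rcases hU {x // x ∈ T'} (G.comap e) (by rw [Fintype.card_coe, hT'c]) with h | h
  · exfalso
    obtain ⟨v, p, hp, hl⟩ := h
    refine hc ⟨(SimpleGraph.Embedding.comap e G).toHom v,
      p.map (SimpleGraph.Embedding.comap e G).toHom, ?_, ?_⟩
    · exact (SimpleGraph.Walk.isCycle_map_iff_of_injective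
        (SimpleGraph.Embedding.comap e G).injective).2 hp
    · rw [SimpleGraph.Walk.length_map, hl]
  · obtain ⟨s, hs, hi⟩ := h
    refine ⟨s.map e, ?_, by rw [Finset.card_map, hs], ?_⟩
    · intro x hx
      obtain ⟨y, _, rfl⟩ := Finset.mem_map.1 hx
      exact hT'T y.2
    · intro x hx y hy hxy
      obtain ⟨x', hx', rfl⟩ := Finset.mem_map.1 hx
      obtain ⟨y', hy', rfl⟩ := Finset.mem_map.1 hy
      exact hi x' hx' y' hy' hxy

/-- the largest size of an independent set inside `T` -/
noncomputable def ia {V : Type} (G : SimpleGraph V) (T : Finset V) : ℕ :=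
  open Classical in (T.powerset.filter (fun s => Indep G s)).sup Finset.card

lemma le_ia {V : Type} (G : SimpleGraph V) {s T : Finset V} (hs : s ⊆ T) (hi : Indep G s) :
    s.card ≤ ia G T := by
  classical
  unfold ia
  exact Finset.le_sup (f := Finset.card) (Finset.mem_filter.2 ⟨Finset.mem_powerset.2 hs, hi⟩)

lemma exists_ia {V : Type} (G : SimpleGraph V) (T : Finset V) :
    ∃ s ⊆ T, Indep G s ∧ s.card = ia G T := by
  classical
  have hne : (T.powerset.filter (fun s => Indep G s)).Nonempty :=
    ⟨∅, Finset.mem_filter.2 ⟨Finset.empty_mem_powerset T, fun x hx => by simp at hx⟩⟩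
  obtain ⟨s, hs, he⟩ := Finset.exists_mem_eq_sup _ hne Finset.card
  obtain ⟨h1, h2⟩ := Finset.mem_filter.1 hs
  refine ⟨s, Finset.mem_powerset.1 h1, h2, ?_⟩
  unfold ia
  exact he.symm

/-- the size of a vertex subset is bounded through its independence number -/
lemma card_le_ia {V : Type} (G : SimpleGraph V) {m n : ℕ}
    (hmin : ∀ k, 1 ≤ k → k < n → UpperBound m k) (hc : ¬ HasCycle G m) (T : Finset V)
    (hT : ia G T + 1 < n) : T.card ≤ (m - 1) * ia G T := by
  by_contra hcon
  obtain ⟨s, hsT, hsc, hsi⟩ := indep_of_card G (hmin (ia G T + 1) (by omega) hT) hc T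
    (by simpa using Nat.succ_le_of_lt (not_le.1 hcon))
  have := le_ia G hsT hsi
  omega

/-- minimum degree -/
lemma degree_ge {V : Type} [Fintype V] [DecidableEq V] (G : SimpleGraph V) [DecidableRel G.Adj]
    {m n : ℕ} (hmin : ∀ k, 1 ≤ k → k < n → UpperBound m k)
    (hcard : Fintype.card V = (m - 1) * (n - 1) + 1) (hc : ¬ HasCycle G m)
    (hi : ¬ HasIndep G n) (v : V) : m - 1 ≤ G.degree v := by
  set T : Finset V := Finset.univ.filter (fun w => w ≠ v ∧ ¬ G.Adj v w) with hT
  obtain ⟨s, hsT, hsi, hsc⟩ := exists_ia G T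
  have hvs : v ∉ s := fun h => ((Finset.mem_filter.1 (hsT h)).2.1) rfl
  have hins : Indep G (insert v s) := by
    intro x hx y hy
    rcases Finset.mem_insert.1 hx with ex | hx'
    · rcases Finset.mem_insert.1 hy with ey | hy'
      · rw [ex, ey]; exact G.irrefl
      · rw [ex]; exact (Finset.mem_filter.1 (hsT hy')).2.2
    · rcases Finset.mem_insert.1 hy with ey | hy'
      · rw [ey]; exact fun h => (Finset.mem_filter.1 (hsT hx')).2.2 h.symm
      · exact hsi x hx' y hy'
  have h1 := hins.card_lt hi
  rw [Finset.card_insert_of_notMem hvs, hsc] at h1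
  have h2 := card_le_ia G hmin hc T h1
  have h3 : (Finset.univ.filter (fun w => ¬ (w ≠ v ∧ ¬ G.Adj v w))).card ≤ G.degree v + 1 := by
    have : Finset.univ.filter (fun w => ¬ (w ≠ v ∧ ¬ G.Adj v w)) ⊆ insert v (G.neighborFinset v) := by
      intro w hw
      have hw' := (Finset.mem_filter.1 hw).2
      by_cases hwv : w = v
      · rw [hwv]; exact Finset.mem_insert_self _ _
      · refine Finset.mem_insert_of_mem ?_
        rw [SimpleGraph.mem_neighborFinset]
        by_contra hna
        exact hw' ⟨hwv, hna⟩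
    refine (Finset.card_le_card this).trans ?_
    refine (Finset.card_insert_le _ _).trans ?_
    rw [SimpleGraph.card_neighborFinset_eq_degree]
  have h4 := Finset.card_filter_add_card_filter_not (s := (Finset.univ : Finset V))
    (fun w => w ≠ v ∧ ¬ G.Adj v w)
  rw [Finset.card_univ, hcard, ← hT] at h4
  obtain ⟨n', rfl⟩ : ∃ n', n = n' + 2 := ⟨n - 2, by omega⟩
  have h5 : (m - 1) * ia G T ≤ (m - 1) * n' := Nat.mul_le_mul_left _ (by omega)
  have h6 : (m - 1) * (n' + 2 - 1) = (m - 1) * n' + (m - 1) := by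
    have : n' + 2 - 1 = n' + 1 := by omega
    rw [this]; ring
  omega

/-- one side of a clique cutset -/
lemma side_bound {V : Type} [DecidableEq V] (G : SimpleGraph V) {m n : ℕ}
    (hmin : ∀ k, 1 ≤ k → k < n → UpperBound m k) (hc : ¬ HasCycle G m)
    (A S : Finset V) (hAS : Disjoint A S) (hS : ∀ x ∈ S, ∀ y ∈ S, x ≠ y → G.Adj x y)
    (ha : ia G A + 1 < n) :
    ∃ SA ⊆ S, (∀ u ∈ SA, ∃ I ⊆ A, Indep G I ∧ I.card = ia G A ∧ ∀ x ∈ I, ¬ G.Adj u x) ∧
      A.card + S.card ≤ (m - 1) * ia G A + SA.card := by
  classical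
  set SA : Finset V := S.filter
    (fun u => ∃ I ⊆ A, Indep G I ∧ I.card = ia G A ∧ ∀ x ∈ I, ¬ G.Adj u x) with hSA
  have hsub : SA ⊆ S := Finset.filter_subset _ _
  refine ⟨SA, hsub, fun u hu => (Finset.mem_filter.1 hu).2, ?_⟩
  set T : Finset V := A ∪ (S \ SA) with hT
  have hia : ia G T ≤ ia G A := by
    obtain ⟨J, hJT, hJi, hJc⟩ := exists_ia G T
    set JA := J.filter (fun x => x ∈ A) with hJA
    set JS := J.filter (fun x => ¬ x ∈ A) with hJS
    have hsum : JA.card + JS.card = J.card := Finset.card_filter_add_card_filter_not _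
    have h1 : JA.card ≤ ia G A :=
      le_ia G (fun x hx => (Finset.mem_filter.1 hx).2) (hJi.mono (Finset.filter_subset _ _))
    have hJS' : ∀ x ∈ JS, x ∈ S \ SA := by
      intro x hx
      obtain ⟨hxJ, hxA⟩ := Finset.mem_filter.1 hx
      rcases Finset.mem_union.1 (hJT hxJ) with h | h
      · exact absurd h hxA
      · exact h
    have h2 : JS.card ≤ 1 := by
      rw [Finset.card_le_one]
      intro x hx y hy
      by_contra hxy
      exact hJi x (Finset.mem_filter.1 hx).1 y (Finset.mem_filter.1 hy).1
        (hS x (Finset.mem_sdiff.1 (hJS' x hx)).1 y (Finset.mem_sdiff.1 (hJS' y hy)).1 hxy)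
    by_contra hcon
    have h3 : JA.card = ia G A ∧ JS.card = 1 := by omega
    obtain ⟨u, hu⟩ := Finset.card_pos.1 (by omega : 0 < JS.card)
    have hu' := Finset.mem_sdiff.1 (hJS' u hu)
    apply hu'.2
    refine Finset.mem_filter.2 ⟨hu'.1, JA, fun x hx => (Finset.mem_filter.1 hx).2,
      hJi.mono (Finset.filter_subset _ _), h3.1, fun x hx => ?_⟩
    exact hJi u (Finset.mem_filter.1 hu).1 x (Finset.mem_filter.1 hx).1
  have h4 := card_le_ia G hmin hc T (by omega)
  have h5 : (m - 1) * ia G T ≤ (m - 1) * ia G A := Nat.mul_le_mul_left _ hia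
  have hdis : Disjoint A (S \ SA) := Finset.disjoint_of_subset_right Finset.sdiff_subset hAS
  have h6 : T.card = A.card + (S \ SA).card := Finset.card_union_of_disjoint hdis
  have h7 : (S \ SA).card + SA.card = S.card := Finset.card_sdiff_add_card_eq_card hsub
  omega

/-- no clique cutset -/
lemma no_clique_cutset {V : Type} [Fintype V] [DecidableEq V] (G : SimpleGraph V) {m n : ℕ}
    (hmin : ∀ k, 1 ≤ k → k < n → UpperBound m k)
    (hcard : Fintype.card V = (m - 1) * (n - 1) + 1) (hc : ¬ HasCycle G m)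
    (hi : ¬ HasIndep G n) (A B S : Finset V) (hA : A.Nonempty) (hB : B.Nonempty)
    (hAB : Disjoint A B) (hAS : Disjoint A S) (hBS : Disjoint B S)
    (hun : A ∪ B ∪ S = Finset.univ) (hS : ∀ x ∈ S, ∀ y ∈ S, x ≠ y → G.Adj x y) :
    ∃ a ∈ A, ∃ b ∈ B, G.Adj a b := by
  classical
  by_contra hno
  push Not at hno
  have hpos : ∀ T : Finset V, T.Nonempty → 1 ≤ ia G T := by
    rintro T ⟨x, hx⟩
    have := le_ia G (s := {x}) (T := T) (by simpa using hx) (by
      intro y hy z hz
      rw [Finset.mem_singleton.1 hy, Finset.mem_singleton.1 hz]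
      exact G.irrefl)
    simpa using this
  have ha1 := hpos A hA
  have hb1 := hpos B hB
  -- independent sets of the two sides can be combined
  have hcomb : ∀ I ⊆ A, ∀ I' ⊆ B, Indep G I → Indep G I' → Indep G (I ∪ I') := by
    intro I hI I' hI' h h' x hx y hy
    rcases Finset.mem_union.1 hx with hx | hx <;> rcases Finset.mem_union.1 hy with hy | hy
    · exact h x hx y hy
    · exact hno x (hI hx) y (hI' hy)
    · exact fun hxy => hno y (hI hy) x (hI' hx) hxy.symm
    · exact h' x hx y hy
  obtain ⟨IA, hIA, hIAi, hIAc⟩ := exists_ia G A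
  obtain ⟨IB, hIB, hIBi, hIBc⟩ := exists_ia G B
  have hab : ia G A + ia G B < n := by
    have := (hcomb IA hIA IB hIB hIAi hIBi).card_lt hi
    rwa [Finset.card_union_of_disjoint (Finset.disjoint_of_subset_left hIA
      (Finset.disjoint_of_subset_right hIB hAB)), hIAc, hIBc] at this
  have hN : A.card + B.card + S.card = (m - 1) * (n - 1) + 1 := by
    rw [← hcard, ← Finset.card_univ, ← hun, Finset.card_union_of_disjoint,
      Finset.card_union_of_disjoint hAB]
    exact Finset.disjoint_union_left.2 ⟨hAS, hBS⟩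
  obtain ⟨SA, hSAs, hSA, hcA⟩ := side_bound G hmin hc A S hAS hS (by omega)
  obtain ⟨SB, hSBs, hSB, hcB⟩ := side_bound G hmin hc B S hBS hS (by omega)
  by_cases hcase : ia G A + ia G B + 1 < n
  · -- the clique is too large
    have hA' := card_le_ia G hmin hc A (by omega)
    have hB' := card_le_ia G hmin hc B (by omega)
    have hSm : (m - 1) * (2 - 1) + 1 ≤ S.card := by
      obtain ⟨n', rfl⟩ : ∃ n', n = n' + 2 := ⟨n - 2, by omega⟩
      have h5 : (m - 1) * (ia G A + ia G B) ≤ (m - 1) * n' := Nat.mul_le_mul_left _ (by omega)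
      have h6 : (m - 1) * (n' + 2 - 1) = (m - 1) * n' + (m - 1) := by
        have : n' + 2 - 1 = n' + 1 := by omega
        rw [this]; ring
      have h7 : (m - 1) * (ia G A + ia G B) = (m - 1) * ia G A + (m - 1) * ia G B := by ring
      simp only [Nat.add_one_sub_one, mul_one]
      omega
    obtain ⟨P, hPS, hPc, hPi⟩ := indep_of_card G (hmin 2 (by omega) (by omega)) hc S hSm
    obtain ⟨x, y, hxy, rfl⟩ := Finset.card_eq_two.1 hPc
    exact hPi x (by simp) y (by simp) (hS x (hPS (by simp)) y (hPS (by simp)) hxy)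
  · have hn : n = ia G A + ia G B + 1 := by omega
    have hdisj : Disjoint SA SB := by
      rw [Finset.disjoint_left]
      intro u huA huB
      obtain ⟨I, hI, hIi, hIc, hIu⟩ := hSA u huA
      obtain ⟨I', hI', hIi', hIc', hIu'⟩ := hSB u huB
      have huS : u ∈ S := hSAs huA
      have hu1 : u ∉ I ∪ I' := by
        intro h
        rcases Finset.mem_union.1 h with h | h
        · exact Finset.disjoint_left.1 hAS (hI h) huS
        · exact Finset.disjoint_left.1 hBS (hI' h) huS
      have hind : Indep G (insert u (I ∪ I')) := by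
        have h0 := hcomb I hI I' hI' hIi hIi'
        have hu2 : ∀ x ∈ I ∪ I', ¬ G.Adj u x := by
          intro x hx
          rcases Finset.mem_union.1 hx with hx | hx
          · exact hIu x hx
          · exact hIu' x hx
        intro x hx y hy
        rcases Finset.mem_insert.1 hx with ex | hx'
        · rcases Finset.mem_insert.1 hy with ey | hy'
          · rw [ex, ey]; exact G.irrefl
          · rw [ex]; exact hu2 y hy'
        · rcases Finset.mem_insert.1 hy with ey | hy'
          · rw [ey]; exact fun h => hu2 x hx' h.symm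
          · exact h0 x hx' y hy'
      have := hind.card_lt hi
      rw [Finset.card_insert_of_notMem hu1, Finset.card_union_of_disjoint
        (Finset.disjoint_of_subset_left hI (Finset.disjoint_of_subset_right hI' hAB)),
        hIc, hIc'] at this
      omega
    have hle : SA.card + SB.card ≤ S.card := by
      rw [← Finset.card_union_of_disjoint hdisj]
      exact Finset.card_le_card (Finset.union_subset hSAs hSBs)
    have h8 : (m - 1) * (n - 1) = (m - 1) * ia G A + (m - 1) * ia G B := by
      have : n - 1 = ia G A + ia G B := by omega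
      rw [this]; ring
    omega

/-- **Structure of a minimal counterexample.**  Suppose `R(C_m, K_k) ≤ (m-1)(k-1)+1` for all
`1 ≤ k < n` and let `G` be a graph on `(m-1)(n-1)+1` vertices without a cycle of length `m` and
without an independent set of `n` vertices.  Then `G` has minimum degree at least `m - 1` and no
clique cutset: if the vertex set is partitioned into `A`, `B`, `S` with `A`, `B` nonempty and `S` a
clique (possibly empty), then there is an edge between `A` and `B`. -/
theorem result (m n : ℕ) (hmin : ∀ k, 1 ≤ k → k < n → UpperBound m k)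
    (V : Type) [Fintype V] [DecidableEq V] (G : SimpleGraph V) [DecidableRel G.Adj]
    (hcard : Fintype.card V = (m - 1) * (n - 1) + 1) (hc : ¬ HasCycle G m)
    (hi : ¬ HasIndep G n) :
    (∀ v, m - 1 ≤ G.degree v) ∧
    (∀ A B S : Finset V, A.Nonempty → B.Nonempty → Disjoint A B → Disjoint A S → Disjoint B S →
      A ∪ B ∪ S = Finset.univ → (∀ x ∈ S, ∀ y ∈ S, x ≠ y → G.Adj x y) →
      ∃ a ∈ A, ∃ b ∈ B, G.Adj a b) :=
  ⟨fun v => degree_ge G hmin hcard hc hi v,
    fun A B S hA hB hAB hAS hBS hun hS =>
      no_clique_cutset G hmin hcard hc hi A B S hA hB hAB hAS hBS hun hS⟩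

end Vale.Agent.Results.P048.NoCliqueCutset
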